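import Vale.Agent.P223.R2.H84.Spec
import Vale.Agent.P223.X.BoxB
import Vale.Agent.P223.X.VolU
import Vale.Agent.P223.X.MetU

/-! Block B7: local coordinates in boxes (helper968). -/

namespace Vale.Agent.P223.R2.H968

open scoped ContDiff Topology ENNReal
open MeasureTheory Vale.Agent.P223.H Vale.Agent.P223.X Vale.Agent.P223.R2.H84
open BoxB

theorem boxdet {n : ℕ} {X Y I I' : Type} [TopologicalSpace X] [TopologicalSpace Y]
    {c : X → J.Ch n X} {c' : Y → J.Ch n Y} (B : Box c I) (B' : Box c' I') (j : I) (i : I')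
    (y w : E n) (L M : E n →L[ℝ] E n) (g : Y → J.Mtx n) (g0 : X → J.Mtx n) (q : ℝ)
    (hL : L.comp (fderiv ℝ (B'.x i) y) = (fderiv ℝ (B.x j) w).comp M)
    (hq : q * √(g (B'.a i) (B'.x i y)).det = √(g0 (B.a j) (B.x j w)).det * |L.det|) :
    dens (B.G g0 j) w * |M.det| = q * dens (B'.G g i) y := by
  have h1 : (fderiv ℝ (B.x j) w).det = ∏ k, dth (B.r j) (w k) := VolU.det_fderiv_th _ _ w
  have h2 : (fderiv ℝ (B'.x i) y).det = ∏ k, dth (B'.r i) (y k) := VolU.det_fderiv_th _ _ y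
  have p1 : 0 < ∏ k, dth (B.r j) (w k) := Finset.prod_pos fun k _ => BoxU.dth_pos (B.pos j) _
  have p2 : 0 < ∏ k, dth (B'.r i) (y k) := Finset.prod_pos fun k _ => BoxU.dth_pos (B'.pos i) _
  have h3 : L.det * (∏ k, dth (B'.r i) (y k)) = (∏ k, dth (B.r j) (w k)) * M.det := by
    rw [← h1, ← h2]
    have e1 : (L.comp (fderiv ℝ (B'.x i) y)).det = L.det * (fderiv ℝ (B'.x i) y).det :=
      LinearMap.det_comp _ _
    have e2 : ((fderiv ℝ (B.x j) w).comp M).det = (fderiv ℝ (B.x j) w).det * M.det :=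
      LinearMap.det_comp _ _
    rw [← e1, ← e2, hL]
  have d1 : dens (B.G g0 j) w = (∏ k, dth (B.r j) (w k)) * √(g0 (B.a j) (B.x j w)).det := by
    show √(B.G g0 j w).det = _
    rw [VolU.det_G, Real.sqrt_mul (sq_nonneg _), Real.sqrt_sq p1.le]
  have d2 : dens (B'.G g i) y = (∏ k, dth (B'.r i) (y k)) * √(g (B'.a i) (B'.x i y)).det := by
    show √(B'.G g i y).det = _
    rw [VolU.det_G, Real.sqrt_mul (sq_nonneg _), Real.sqrt_sq p2.le]
  have h4 : |L.det| * (∏ k, dth (B'.r i) (y k)) = (∏ k, dth (B.r j) (w k)) * |M.det| := by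
    have := congrArg abs h3
    rwa [abs_mul, abs_mul, abs_of_pos p1, abs_of_pos p2] at this
  rw [d1, d2]
  calc (∏ k, dth (B.r j) (w k)) * √(g0 (B.a j) (B.x j w)).det * |M.det|
      = √(g0 (B.a j) (B.x j w)).det * ((∏ k, dth (B.r j) (w k)) * |M.det|) := by ring
    _ = (√(g0 (B.a j) (B.x j w)).det * |L.det|) * (∏ k, dth (B'.r i) (y k)) := by
        rw [← h4]; ring
    _ = q * ((∏ k, dth (B'.r i) (y k)) * √(g (B'.a i) (B'.x i y)).det) := by
        rw [← hq]; ring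

theorem main : SpecBoxMap := by
  intro n X Y Z W Γ I I' _ _ _ _ _ _ _ c c' B B' C C' f F hc hc' hβ hβ' heq hπ hprop hf
  have key : ∀ (i : I') (y : E n), ∃ (j : I) (γ₀ : Γ) (Φ : E n → E n), ContDiffAt ℝ ∞ Φ y ∧
    (∀ᶠ y' in 𝓝 y, F (C'.ψ i y') = γ₀ • C.ψ j (Φ y')) ∧
    ∀ (g : Y → J.Mtx n) (g0 : X → J.Mtx n) (q : Y → ℝ), J.Met c' g → J.Met c g0 →
    (∀ a b x, x ∈ (c' a).target → f ((c' a).symm x) ∈ (c b).source →
      q ((c' a).symm x) * √(g a x).det = √(g0 b (c b (f ((c' a).symm x)))).det *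
        |(fderiv ℝ (fun z => c b (f ((c' a).symm z))) x).det|) →
    dens (B.G g0 j) (Φ y) * |(fderiv ℝ Φ y).det| = q (B'.β i y) * dens (B'.G g i) y := by
    intro i y
    obtain ⟨γ₀, j, y0, -, hy0⟩ := C.cover (F (C'.ψ i y))
    set Φ : E n → E n := fun y' => Function.invFun (C.ψ j) (γ₀⁻¹ • F (C'.ψ i y')) with hΦ
    have hcontW : Continuous fun y' => γ₀⁻¹ • F (C'.ψ i y') :=
      (C.cont γ₀⁻¹).comp (F.continuous.comp (C'.emb i).continuous)
    have hmem : γ₀⁻¹ • F (C'.ψ i y) ∈ Set.range (C.ψ j) := ⟨y0, by rw [← hy0, inv_smul_smul]⟩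
    have hev : ∀ᶠ y' in 𝓝 y, γ₀⁻¹ • F (C'.ψ i y') ∈ Set.range (C.ψ j) :=
      hcontW.continuousAt.eventually_mem ((C.emb j).isOpen_range.mem_nhds hmem)
    have hlift : ∀ y', γ₀⁻¹ • F (C'.ψ i y') ∈ Set.range (C.ψ j) →
        F (C'.ψ i y') = γ₀ • C.ψ j (Φ y') := by
      intro y' h
      have h1 : C.ψ j (Φ y') = γ₀⁻¹ • F (C'.ψ i y') := Function.invFun_eq h
      rw [h1, smul_inv_smul]
    have hbeta : ∀ y', γ₀⁻¹ • F (C'.ψ i y') ∈ Set.range (C.ψ j) →
        B.β j (Φ y') = f (B'.β i y') := by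
      intro y' h
      rw [← hβ, ← hβ', ← hπ, hlift y' h, MetU.π_smul]
    -- the map in charts
    set fc : E n → E n := fun z => c (B.a j) (f ((c' (B'.a i)).symm z)) with hfc
    have hfx : ∀ y', γ₀⁻¹ • F (C'.ψ i y') ∈ Set.range (C.ψ j) →
        fc (B'.x i y') = B.x j (Φ y') := by
      intro y' h
      have h1 := hbeta y' h
      have h2 : B.x j (Φ y') = c (B.a j) (B.β j (Φ y')) := (c_β B j _).symm
      rw [h2, h1]; rfl
    have hsrc : f ((c' (B'.a i)).symm (B'.x i y)) ∈ (c (B.a j)).source := by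
      have h1 : f ((c' (B'.a i)).symm (B'.x i y)) = B.β j (Φ y) := (hbeta y hmem).symm
      rw [h1]; exact β_mem B j _
    have hfs : ContDiffAt ℝ ∞ fc (B'.x i y) := hf _ _ _ (x_mem B' i y) hsrc
    have hx' : ContDiff ℝ ∞ (B'.x i) := contDiff_x B' i
    have hx : ContDiff ℝ ∞ (B.x j) := contDiff_x B j
    have hxi : ContDiffAt ℝ ∞ (xi B j) (fc (B'.x i y)) := by
      rw [hfx y hmem]; exact contDiffAt_xi B j _
    have hcomp : ContDiffAt ℝ ∞ (fun y' => fc (B'.x i y')) y := hfs.comp y hx'.contDiffAt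
    have hcomp2 : ContDiffAt ℝ ∞ (fun y' => xi B j (fc (B'.x i y'))) y :=
      ContDiffAt.comp y hxi hcomp
    have hΦe : Φ =ᶠ[𝓝 y] fun y' => xi B j (fc (B'.x i y')) := by
      filter_upwards [hev] with y' h
      rw [hfx y' h, xi_x]
    have hΦs : ContDiffAt ℝ ∞ Φ y := hcomp2.congr_of_eventuallyEq hΦe
    refine ⟨j, γ₀, Φ, hΦs, ?_, ?_⟩
    · filter_upwards [hev] with y' h using hlift y' h
    · intro g g0 q _ _ hq
      have hq1 := hq (B'.a i) (B.a j) (B'.x i y) (x_mem B' i y) hsrc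
      have e0 : c (B.a j) (f ((c' (B'.a i)).symm (B'.x i y))) = B.x j (Φ y) := hfx y hmem
      rw [e0] at hq1
      have f1 : HasFDerivAt (B'.x i) (fderiv ℝ (B'.x i) y) y :=
        (hx'.differentiable (by simp) y).hasFDerivAt
      have f2 : HasFDerivAt fc (fderiv ℝ fc (B'.x i y)) (B'.x i y) :=
        (hfs.differentiableAt (by simp)).hasFDerivAt
      have f3 : HasFDerivAt (B.x j) (fderiv ℝ (B.x j) (Φ y)) (Φ y) :=
        (hx.differentiable (by simp) _).hasFDerivAt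
      have f4 : HasFDerivAt Φ (fderiv ℝ Φ y) y :=
        (hΦs.differentiableAt (by simp)).hasFDerivAt
      have f5 := f2.comp y f1
      have f6 := f3.comp y f4
      have e1 : (fc ∘ B'.x i) =ᶠ[𝓝 y] (B.x j ∘ Φ) := by
        filter_upwards [hev] with y' h using hfx y' h
      have hL := (f6.congr_of_eventuallyEq e1).unique f5
      exact boxdet B B' j i y (Φ y) (fderiv ℝ fc (B'.x i y)) (fderiv ℝ Φ y) g g0 _ hL.symm hq1
  refine ⟨⟨heq, hprop, fun i y => ?_⟩, key⟩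
  obtain ⟨j, γ₀, Φ, h1, h2, -⟩ := key i y
  exact ⟨j, γ₀, Φ, h1, h2⟩

end Vale.Agent.P223.R2.H968
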