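import Vale.Agent.P223.R2.H84.SpecAm

/-! Row R1: averaging a bounded cocycle over an amenable kernel (helper968). -/

namespace Vale.Agent.P223.R2.H968.Avg

open Vale.Agent.P223.R2.H84 Vale.Agent.P223.X

/-! ### alternating sums over lists -/

section
variable {S T : Type}

/-- alternating sum of `F` over the lists with one entry removed -/
def alt (F : List S → ℝ) : List S → ℝ
  | [] => 0
  | a :: l => F l - alt (fun l' => F (a :: l')) l

/-- the prism operator -/
def pr (F : List S → ℝ) : List (S × S) → ℝ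
  | [] => 0
  | a :: l => F (a.1 :: a.2 :: l.map Prod.snd) - pr (fun l' => F (a.1 :: l')) l

theorem alt_sub (F G : List S → ℝ) (l : List S) :
    alt (fun l' => F l' - G l') l = alt F l - alt G l := by
  induction l generalizing F G with
  | nil => simp [alt]
  | cons a l ih => simp only [alt]; rw [ih]; ring

theorem pr_sub (F G : List S → ℝ) (l : List (S × S)) :
    pr (fun l' => F l' - G l') l = pr F l - pr G l := by
  induction l generalizing F G with
  | nil => simp [pr]
  | cons a l ih => simp only [pr]; rw [ih]; ring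

theorem alt_map (f : T → S) (F : List S → ℝ) (l : List T) :
    alt (fun l' => F (l'.map f)) l = alt F (l.map f) := by
  induction l generalizing F with
  | nil => simp [alt]
  | cons a l ih =>
    simp only [alt, List.map_cons]
    rw [ih (fun l' => F (f a :: l'))]

theorem prism (F : List S → ℝ) (l : List (S × S)) :
    alt (pr F) l + pr (alt F) l = F (l.map Prod.snd) - F (l.map Prod.fst) := by
  induction l generalizing F with
  | nil => simp [alt, pr]
  | cons a l ih =>
    have h1 : (fun l' => pr F (a :: l')) = fun l' =>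
        F (a.1 :: a.2 :: l'.map Prod.snd) - pr (fun l'' => F (a.1 :: l'')) l' := rfl
    have h2 : (fun l' => alt F (a.1 :: l')) = fun l' =>
        F l' - alt (fun l'' => F (a.1 :: l'')) l' := rfl
    have h3 := alt_map Prod.snd (fun l' => F (a.1 :: a.2 :: l')) l
    have h4 := ih (fun l' => F (a.1 :: l'))
    show pr F l - alt (fun l' => pr F (a :: l')) l +
      (alt F (a.1 :: a.2 :: l.map Prod.snd) - pr (fun l' => alt F (a.1 :: l')) l) = _
    rw [h1, h2, alt_sub, pr_sub]
    simp only [alt, List.map_cons]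
    rw [h3]
    linarith

theorem alt_congr {F G : List S → ℝ} {l : List S}
    (h : ∀ l' : List S, l'.length + 1 = l.length → F l' = G l') : alt F l = alt G l := by
  induction l generalizing F G with
  | nil => rfl
  | cons a l ih =>
    simp only [alt]
    rw [h l (by simp), ih fun l' h' => h (a :: l') (by simpa using h')]

theorem pr_congr {F G : List S → ℝ} {l : List (S × S)}
    (h : ∀ l' : List S, l'.length = l.length + 1 → F l' = G l') : pr F l = pr G l := by
  induction l generalizing F G with
  | nil => rfl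
  | cons a l ih =>
    simp only [pr]
    rw [h _ (by simp), ih fun l' h' => h (a.1 :: l') (by simpa using h')]

theorem pr_map (f : T → S) (F : List S → ℝ) (l : List (T × T)) :
    pr (fun l' => F (l'.map f)) l = pr F (l.map fun p => (f p.1, f p.2)) := by
  induction l generalizing F with
  | nil => rfl
  | cons a l ih =>
    simp only [pr, List.map_cons]
    rw [ih (fun l' => F (f a.1 :: l')), List.map_map, List.map_map]
    rfl

theorem pr_zero (l : List (S × S)) : pr (fun _ => 0) l = 0 := by
  induction l with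
  | nil => rfl
  | cons a l ih => simp only [pr]; rw [ih]; ring

theorem alt_ofFn (m : ℕ) (F : List S → ℝ) (g : Fin (m + 1) → S) :
    alt F (List.ofFn g) = ∑ i : Fin (m + 1), (-1 : ℝ) ^ (i : ℕ) *
      F (List.ofFn (g ∘ i.succAbove)) := by
  induction m generalizing F with
  | zero =>
    simp [alt, List.ofFn_succ]
  | succ m ih =>
    rw [List.ofFn_succ, Fin.sum_univ_succ]
    simp only [alt]
    rw [ih]
    have h0 : (g ∘ (0 : Fin (m + 2)).succAbove) = fun i => g i.succ := by
      funext i; simp
    rw [h0]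
    have h1 : ∀ i : Fin (m + 1), List.ofFn (g ∘ (i.succ).succAbove) =
        g 0 :: List.ofFn ((fun j : Fin (m + 1) => g j.succ) ∘ i.succAbove) := by
      intro i
      rw [List.ofFn_succ]
      congr 1
      simp
      rfl
    simp only [h1]
    simp only [Fin.val_zero, pow_zero, one_mul, Fin.val_succ, pow_succ]
    rw [sub_eq_add_neg, ← Finset.sum_neg_distrib]
    congr 1
    refine Finset.sum_congr rfl fun i _ => ?_
    ring

end

/-! ### iterated means -/

section
variable {G K : Type} [Group G]

/-- iterated mean -/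
def MM (L : (K → ℝ) →ₗ[ℝ] ℝ) (c : K → G) (Ψ : List (G × G) → ℝ) : List G → ℝ
  | [] => Ψ []
  | g :: l => L fun k => MM L c (fun l' => Ψ ((g, g * c k) :: l')) l

variable (L : (K → ℝ) →ₗ[ℝ] ℝ) (c : K → G)

theorem MM_sub (Ψ Θ : List (G × G) → ℝ) (l : List G) :
    MM L c (fun l' => Ψ l' - Θ l') l = MM L c Ψ l - MM L c Θ l := by
  induction l generalizing Ψ Θ with
  | nil => rfl
  | cons g l ih =>
    simp only [MM]
    rw [← map_sub]
    congr 1
    funext k
    rw [ih]
    rfl

theorem MM_congr {Ψ Θ : List (G × G) → ℝ} {l : List G}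
    (h : ∀ l' : List (G × G), l'.length = l.length → l'.map Prod.fst = l → Ψ l' = Θ l') :
    MM L c Ψ l = MM L c Θ l := by
  induction l generalizing Ψ Θ with
  | nil => exact h [] rfl rfl
  | cons g l ih =>
    simp only [MM]
    congr 1
    funext k
    exact ih fun l' h1 h2 => h _ (by simpa using h1) (by simp [h2])

theorem alt_L {K S : Type} (L : (K → ℝ) →ₗ[ℝ] ℝ) (Θ : K → List S → ℝ) (l : List S) :
    alt (fun l' => L fun k => Θ k l') l = L fun k => alt (Θ k) l := by
  induction l generalizing Θ with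
  | nil =>
    simp only [alt]
    have : (fun _ : K => (0 : ℝ)) = 0 := rfl
    rw [this, map_zero]
  | cons a l ih =>
    simp only [alt]
    rw [ih (fun k l' => Θ k (a :: l')), ← map_sub]
    rfl

theorem MM_const (h1 : ∀ r : ℝ, L (fun _ => r) = r) (F : List G → ℝ) (l : List G) :
    MM L c (fun l' => F (l'.map Prod.fst)) l = F l := by
  induction l generalizing F with
  | nil => rfl
  | cons g l ih =>
    simp only [MM, List.map_cons]
    rw [← h1 (F (g :: l))]
    congr 1
    funext k
    exact ih (fun l' => F (g :: l'))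

theorem MM_alt (h1 : ∀ r : ℝ, L (fun _ => r) = r) (Ψ : List (G × G) → ℝ) (l : List G) :
    alt (MM L c Ψ) l = MM L c (alt Ψ) l := by
  induction l generalizing Ψ with
  | nil => rfl
  | cons g l ih =>
    have e1 : (fun l' => MM L c Ψ (g :: l')) = fun l' =>
        L fun k => MM L c (fun l'' => Ψ ((g, g * c k) :: l'')) l' := rfl
    have e2 : ∀ k, (fun l' => alt Ψ ((g, g * c k) :: l')) = fun l' =>
        Ψ l' - alt (fun l'' => Ψ ((g, g * c k) :: l'')) l' := fun k => rfl
    show MM L c Ψ l - alt (fun l' => MM L c Ψ (g :: l')) l =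
      L fun k => MM L c (fun l' => alt Ψ ((g, g * c k) :: l')) l
    rw [e1, alt_L]
    simp only [e2, MM_sub, ih]
    have e3 : MM L c Ψ l = L fun _ => MM L c Ψ l := (h1 _).symm
    have e4 : ∀ f : K → ℝ, (L fun _ => MM L c Ψ l) - L f = L fun k => MM L c Ψ l - f k :=
      fun f => (map_sub L _ _).symm
    rw [← e4, ← e3]

/-- left multiplication -/
theorem MM_mul (g : G) (Ψ : List (G × G) → ℝ) (l : List G) :
    MM L c Ψ (l.map (g * ·)) = MM L c (fun l' => Ψ (l'.map fun p => (g * p.1, g * p.2))) l := by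
  induction l generalizing Ψ with
  | nil => rfl
  | cons a l ih =>
    simp only [MM, List.map_cons]
    congr 1
    funext k
    rw [ih]
    simp only [mul_assoc]

end

/-! ### the mean as a linear functional -/

theorem exists_lin {A : Type} [Group A] (m : GMean A) : ∃ L : (A → ℝ) →ₗ[ℝ] ℝ,
    ∀ f, MT.Bdd f → L f = m.μ f := by
  let p : Submodule ℝ (A → ℝ) :=
    { carrier := {f | MT.Bdd f}
      add_mem' := by
        rintro f g ⟨C, hC⟩ ⟨D, hD⟩
        exact ⟨C + D, fun a => (abs_add_le _ _).trans (add_le_add (hC a) (hD a))⟩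
      zero_mem' := ⟨0, fun a => by simp⟩
      smul_mem' := by
        rintro r f ⟨C, hC⟩
        refine ⟨|r| * C, fun a => ?_⟩
        show |r * f a| ≤ _
        rw [abs_mul]
        exact mul_le_mul_of_nonneg_left (hC a) (abs_nonneg r) }
  let φ : p →ₗ[ℝ] ℝ :=
    { toFun := fun f => m.μ f.1
      map_add' := fun f g => m.add _ _ f.2 g.2
      map_smul' := fun r f => m.smul r _ f.2 }
  obtain ⟨L, hL⟩ := φ.exists_extend
  refine ⟨L, fun f hf => ?_⟩
  exact congrArg (fun ψ : p →ₗ[ℝ] ℝ => ψ ⟨f, hf⟩) hL

section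
variable {G Γ : Type} [Group G] [Group Γ] (ρ : G →* Γ) (m : GMean ρ.ker)
  (L : (ρ.ker → ℝ) →ₗ[ℝ] ℝ) (hL : ∀ f, MT.Bdd f → L f = m.μ f)

include hL in
theorem MM_bound {C : ℝ} (Ψ : List (G × G) → ℝ) (hΨ : ∀ l, |Ψ l| ≤ C) (l : List G) :
    |MM L (fun k : ρ.ker => (k : G)) Ψ l| ≤ C := by
  induction l generalizing Ψ with
  | nil => exact hΨ _
  | cons g l ih =>
    have h1 : ∀ k : ρ.ker, |MM L (fun k : ρ.ker => (k : G))
        (fun l' => Ψ ((g, g * k) :: l')) l| ≤ C := fun k => ih _ fun l' => hΨ _
    show |L fun k => _| ≤ C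
    rw [hL _ ⟨C, h1⟩]
    exact m.bound _ C h1

include hL in
/-- the iterated mean of a function of the second entries only depends on the classes -/
theorem MM_inv {C : ℝ} (F : List G → ℝ) (hF : ∀ l, |F l| ≤ C) (l l' : List G)
    (h : List.Forall₂ (fun a b => ρ a = ρ b) l l') :
    MM L (fun k : ρ.ker => (k : G)) (fun t => F (t.map Prod.snd)) l =
      MM L (fun k : ρ.ker => (k : G)) (fun t => F (t.map Prod.snd)) l' := by
  induction h generalizing F with
  | nil => rfl
  | @cons a b l l' hab _ ih =>
    have hk : a⁻¹ * b ∈ ρ.ker := by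
      rw [MonoidHom.mem_ker, map_mul, map_inv, hab, inv_mul_cancel]
    let k0 : ρ.ker := ⟨a⁻¹ * b, hk⟩
    let f : ρ.ker → ℝ := fun k => MM L (fun k : ρ.ker => (k : G))
      (fun t => F ((a * k) :: t.map Prod.snd)) l
    have hf : ∀ k, |f k| ≤ C := fun k => MM_bound ρ m L hL _ (fun t => hF _) l
    have hf' : ∀ k, |f (k0 * k)| ≤ C := fun k => hf _
    have e1 : (MM L (fun k : ρ.ker => (k : G)) (fun t => F (t.map Prod.snd)) (a :: l)) =
        L f := rfl
    have e2 : (MM L (fun k : ρ.ker => (k : G)) (fun t => F (t.map Prod.snd)) (b :: l')) =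
        L fun k => f (k0 * k) := by
      show (L fun k => _) = L fun k => f (k0 * k)
      congr 1
      funext k
      have h1 := ih (fun t => F ((a * ((k0 * k : ρ.ker) : G)) :: t)) (fun t => hF _)
      have h2 : a * ((k0 * k : ρ.ker) : G) = b * k := by
        show a * (a⁻¹ * b * k) = b * k
        group
      show MM L (fun k : ρ.ker => (k : G)) (fun t => F ((b * k) :: t.map Prod.snd)) l' =
        MM L (fun k : ρ.ker => (k : G)) (fun t => F ((a * ((k0 * k : ρ.ker) : G)) ::
          t.map Prod.snd)) l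
      rw [h1, h2]
    rw [e1, e2, hL _ ⟨C, hf⟩, hL _ ⟨C, hf'⟩]
    exact (m.inv f k0 ⟨C, hf⟩).symm

end

/-- a function of `m` variables as a function of lists -/
noncomputable def ex {S : Type} (m : ℕ) (F : (Fin m → S) → ℝ) (l : List S) : ℝ :=
  open Classical in if h : l.length = m then F fun i => l.get (i.cast h.symm) else 0

theorem ex_ofFn {S : Type} (m : ℕ) (F : (Fin m → S) → ℝ) (g : Fin m → S) :
    ex m F (List.ofFn g) = F g := by
  unfold ex
  rw [dif_pos (List.length_ofFn)]
  congr 1
  funext i
  simp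

theorem exists_ofFn {S : Type} {m : ℕ} {l : List S} (h : l.length = m) :
    ∃ g : Fin m → S, l = List.ofFn g := by
  subst h
  exact ⟨l.get, (List.ofFn_get l).symm⟩

theorem main : SpecAvg := by
  intro G Γ _ _ ρ n F hs hm hb hinv hcoc
  obtain ⟨m⟩ := hm
  obtain ⟨L, hL⟩ := exists_lin m
  obtain ⟨s, hs'⟩ := hs.hasRightInverse
  have hconst : ∀ r : ℝ, L (fun _ => r) = r := fun r => by
    rw [hL _ ⟨|r|, fun _ => le_rfl⟩, m.const]
  set c : ρ.ker → G := fun k => (k : G) with hc
  set E : List G → ℝ := ex (n + 1) F with hE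
  have hEb : ∀ l, |E l| ≤ 1 := by
    intro l
    by_cases h : l.length = n + 1
    · obtain ⟨g, rfl⟩ := exists_ofFn h
      rw [hE, ex_ofFn]; exact hb g
    · have : E l = 0 := dif_neg h
      rw [this, abs_zero]; exact zero_le_one
  have hEinv : ∀ (γ : G) (l : List G), E (l.map (γ * ·)) = E l := by
    intro γ l
    by_cases h : l.length = n + 1
    · obtain ⟨g, rfl⟩ := exists_ofFn h
      have : (List.ofFn g).map (γ * ·) = List.ofFn fun i => γ * g i := by
        rw [List.map_ofFn]; rfl
      rw [this, hE, ex_ofFn, ex_ofFn, hinv]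
    · have h1 : E l = 0 := dif_neg h
      have h2 : E (l.map (γ * ·)) = 0 := dif_neg (by rwa [List.length_map])
      rw [h1, h2]
  have hEcoc : ∀ l : List G, l.length = n + 2 → alt E l = 0 := by
    intro l h
    obtain ⟨g, rfl⟩ := exists_ofFn h
    rw [alt_ofFn]
    have e : ∀ i : Fin (n + 2), E (List.ofFn (g ∘ i.succAbove)) = F (g ∘ i.succAbove) :=
      fun i => ex_ofFn _ _ _
    simp only [e]
    exact hcoc g
  -- the averaged function
  let A : List G → ℝ := MM L c fun t => E (t.map Prod.snd)
  let Bt : List G → ℝ := MM L c (pr E)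
  have hAinv : ∀ (l l' : List G), List.Forall₂ (fun a b => ρ a = ρ b) l l' → A l = A l' :=
    fun l l' h => MM_inv ρ m L hL E hEb l l' h
  have hAmul : ∀ (γ : G) (l : List G), A (l.map (γ * ·)) = A l := by
    intro γ l
    show MM L c _ (l.map (γ * ·)) = MM L c _ l
    rw [MM_mul]
    congr 1
    funext t
    have : (t.map fun p : G × G => (γ * p.1, γ * p.2)).map Prod.snd =
        (t.map Prod.snd).map (γ * ·) := by
      rw [List.map_map, List.map_map]; rfl
    rw [this, hEinv]
  have hA' : ∀ (k : ℕ) (g g' : Fin k → G), (∀ i, ρ (g i) = ρ (g' i)) →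
      A (List.ofFn g) = A (List.ofFn g') := by
    intro k g g' h
    refine hAinv _ _ (List.forall₂_iff_get.2 ⟨by simp, fun i h1 h2 => ?_⟩)
    simp only [List.get_ofFn]
    exact h _
  have hzero : ∀ l : List G, MM L c (fun _ => (0 : ℝ)) l = 0 := fun l =>
    MM_const L c hconst (fun _ => 0) l
  have hAcoc : ∀ l : List G, l.length = n + 2 → alt A l = 0 := by
    intro l hl
    have h1 : alt A l = MM L c (alt fun t => E (t.map Prod.snd)) l := MM_alt L c hconst _ l
    rw [h1, ← hzero l]
    refine MM_congr L c fun t ht _ => ?_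
    rw [alt_map]
    exact hEcoc _ (by rw [List.length_map, ht, hl])
  have hBt : ∀ l : List G, l.length = n + 1 → alt Bt l = A l - E l := by
    intro l hl
    have h1 : alt Bt l = MM L c (alt (pr E)) l := MM_alt L c hconst _ l
    have h2 : MM L c (alt (pr E)) l =
        MM L c (fun t => E (t.map Prod.snd) - E (t.map Prod.fst)) l := by
      refine MM_congr L c fun t ht _ => ?_
      have h3 := prism E t
      have h4 : pr (alt E) t = 0 := by
        rw [← pr_zero t]
        exact pr_congr fun l' hl' => hEcoc l' (by rw [hl', ht, hl])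
      linarith
    rw [h1, h2, MM_sub, MM_const L c hconst]
  have hBinv : ∀ (γ : G) (l : List G), Bt (l.map (γ * ·)) = Bt l := by
    intro γ l
    show MM L c _ (l.map (γ * ·)) = MM L c _ l
    rw [MM_mul]
    congr 1
    funext t
    rw [← pr_map (γ * ·) E t]
    congr 1
    funext l'
    exact hEinv γ l'
  refine ⟨fun γ => A (List.ofFn fun i => s (γ i)), ?_, ?_, ?_,
    fun g => -Bt (List.ofFn g), ?_, ?_⟩
  · intro g
    exact MM_bound ρ m L hL _ (fun t => hEb _) _
  · intro γ g
    show A (List.ofFn fun i => s (γ * g i)) = A (List.ofFn fun i => s (g i))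
    rw [← hAmul (s γ) (List.ofFn fun i => s (g i)), List.map_ofFn]
    refine hA' _ _ _ fun i => ?_
    show ρ (s (γ * g i)) = ρ (s γ * s (g i))
    rw [map_mul, hs', hs', hs']
  · intro g
    have h1 := alt_ofFn (n + 1) A fun i => s (g i)
    rw [hAcoc _ (by simp)] at h1
    exact h1.symm
  · intro γ g
    show -Bt (List.ofFn fun i => γ * g i) = -Bt (List.ofFn g)
    rw [← hBinv γ (List.ofFn g), List.map_ofFn]
    rfl
  · intro g
    have h1 := alt_ofFn n Bt g
    rw [hBt _ (by simp)] at h1
    have h2 : A (List.ofFn fun i => s (ρ (g i))) = A (List.ofFn g) :=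
      hA' _ _ _ fun i => hs' _
    have h3 : E (List.ofFn g) = F g := ex_ofFn _ _ _
    show F g - A (List.ofFn fun i => s (ρ (g i))) = _
    rw [h2, ← h3]
    have h4 : ∑ i : Fin (n + 1), (-1 : ℝ) ^ (i : ℕ) * (-Bt (List.ofFn (g ∘ i.succAbove))) =
        -∑ i : Fin (n + 1), (-1 : ℝ) ^ (i : ℕ) * Bt (List.ofFn (g ∘ i.succAbove)) := by
      rw [← Finset.sum_neg_distrib]
      exact Finset.sum_congr rfl fun i _ => by ring
    rw [h4, ← h1]
    ring

end Vale.Agent.P223.R2.H968.Avg
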