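import Vale.Agent.P223.R2.H84.Spec
import Mathlib.Topology.Homotopy.Lifting
import Mathlib.AlgebraicTopology.FundamentalGroupoid.SimplyConnected

/-! Block B3: the fibre product with the universal covering (helper968). -/

namespace Vale.Agent.P223.R2.H968.FP

open Vale.Agent.P223.R2.H84
open scoped Topology

section
variable {Y X Z : Type} [TopologicalSpace Y] [TopologicalSpace X] [TopologicalSpace Z]

/-- the fibre product -/
abbrev W (f : C(Y, X)) (π : C(Z, X)) : Type := {p : Y × Z // f p.1 = π p.2}

/-- the projection to `Y` -/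
def pr (f : C(Y, X)) (π : C(Z, X)) : C(W f π, Y) :=
  ⟨fun w => w.1.1, continuous_fst.comp continuous_subtype_val⟩

/-- the projection to `Z` -/
def up (f : C(Y, X)) (π : C(Z, X)) : C(W f π, Z) :=
  ⟨fun w => w.1.2, continuous_snd.comp continuous_subtype_val⟩

theorem up_pr (f : C(Y, X)) (π : C(Z, X)) (w : W f π) : π (up f π w) = f (pr f π w) := w.2.symm

theorem cov_pr (f : C(Y, X)) (π : C(Z, X)) (h : IsCoveringMap π) : IsCoveringMap (pr f π) := by
  intro y
  apply IsEvenlyCovered.to_isEvenlyCovered_preimage (I := π ⁻¹' {f y})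
  obtain ⟨hd, U, hxU, hU, hfU, H, hH⟩ := h (f y)
  have hV : IsOpen (f ⁻¹' U) := hU.preimage f.continuous
  have hH' : ∀ x : U × (π ⁻¹' {f y}), π (H.symm x).1 = x.1.1 := by
    intro x
    rw [← hH, H.apply_symm_apply]
  have hz : ∀ w : (pr f π) ⁻¹' (f ⁻¹' U), π (w.1.1.2) ∈ U := by
    intro w
    have := w.2
    rw [← w.1.2]
    exact this
  refine ⟨hd, f ⁻¹' U, hxU, hV, hV.preimage (pr f π).continuous, ?_, ?_⟩
  · exact
    { toFun := fun w => (⟨w.1.1.1, w.2⟩, (H ⟨w.1.1.2, hz w⟩).2)
      invFun := fun v => ⟨⟨(v.1.1, (H.symm (⟨f v.1.1, v.1.2⟩, v.2)).1),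
        (hH' (⟨f v.1.1, v.1.2⟩, v.2)).symm⟩, v.1.2⟩
      left_inv := by
        intro w
        have e : ((⟨f w.1.1.1, w.2⟩ : U), (H ⟨w.1.1.2, hz w⟩).2) = H ⟨w.1.1.2, hz w⟩ := by
          refine Prod.ext (Subtype.ext ?_) rfl
          rw [hH]
          exact w.1.2
        refine Subtype.ext (Subtype.ext (Prod.ext rfl ?_))
        show (H.symm ((⟨f w.1.1.1, w.2⟩ : U), (H ⟨w.1.1.2, hz w⟩).2)).1 = w.1.1.2
        rw [e, H.symm_apply_apply]
      right_inv := by
        intro v
        refine Prod.ext rfl ?_
        show (H ⟨(H.symm (⟨f v.1.1, v.1.2⟩, v.2)).1, _⟩).2 = v.2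
        have e : (⟨(H.symm (⟨f v.1.1, v.1.2⟩, v.2)).1, by
            rw [Set.mem_preimage, hH']; exact v.1.2⟩ : π ⁻¹' U) =
            H.symm (⟨f v.1.1, v.1.2⟩, v.2) := Subtype.ext rfl
        rw [e, H.apply_symm_apply]
      continuous_toFun := by
        refine Continuous.prodMk ?_ ?_
        · exact Continuous.subtype_mk ((pr f π).continuous.comp continuous_subtype_val) _
        · exact continuous_snd.comp (H.continuous.comp
            (Continuous.subtype_mk ((up f π).continuous.comp continuous_subtype_val) _))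
      continuous_invFun := by
        refine Continuous.subtype_mk (Continuous.subtype_mk (Continuous.prodMk ?_ ?_) _) _
        · exact continuous_subtype_val.comp continuous_fst
        · refine continuous_subtype_val.comp (H.symm.continuous.comp (Continuous.prodMk ?_ ?_))
          · exact Continuous.subtype_mk
              (f.continuous.comp (continuous_subtype_val.comp continuous_fst)) _
          · exact continuous_snd }
  · intro x
    rfl

/-- lifts of paths -/
theorem lift_end {f : C(Y, X)} {π : C(Z, X)} (h : IsCoveringMap π) (w : W f π) {y' : Y}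
    (p : Path (pr f π w) y') : ∃ (w' : W f π) (q : Path w w'), pr f π w' = y' ∧
      ∀ t, pr f π (q t) = p t := by
  have hc := cov_pr f π h
  set G := hc.liftPath p.toContinuousMap w p.source with hG
  have h1 : (pr f π) ∘ G = p := hc.liftPath_lifts _ _ _
  refine ⟨G 1, ⟨G, hc.liftPath_zero _ _ _, rfl⟩, ?_, fun t => congrFun h1 t⟩
  have := congrFun h1 1
  simpa using this

theorem joined {f : C(Y, X)} {π : C(Z, X)} (h : IsCoveringMap π) [PathConnectedSpace Y]
    [SimplyConnectedSpace Z] (hpi : PiIso f) (w w' : W f π) : Joined w w' := by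
  obtain ⟨w1, q1, h1, -⟩ := lift_end h w (PathConnectedSpace.somePath (pr f π w) (pr f π w'))
  have hj : Joined w w1 := ⟨q1⟩
  refine hj.trans ?_
  -- a path between the points of the fibre
  let q : Path (up f π w1) (up f π w') := PathConnectedSpace.somePath _ _
  have e1 : f (pr f π w1) = π (up f π w1) := (up_pr f π w1).symm
  have e2 : f (pr f π w1) = π (up f π w') := by rw [h1]; exact (up_pr f π w').symm
  obtain ⟨p, hp⟩ := (hpi (pr f π w1)).2 ((q.map π.continuous).cast e1 e2)
  obtain ⟨w2, r, h2, hr⟩ := lift_end h w1 p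
  suffices hw : w2 = w' by
    rw [← hw]; exact ⟨r⟩
  have a0 : (p.map f.continuous).toContinuousMap 0 = π (up f π w1) := by
    show (p.map f.continuous) 0 = _
    rw [Path.source]; exact e1
  have b0 : ((q.map π.continuous).cast e1 e2).toContinuousMap 0 = π (up f π w1) := by
    show ((q.map π.continuous).cast e1 e2) 0 = _
    rw [Path.source]; exact e1
  have key := h.liftPath_apply_one_eq_of_homotopicRel hp (up f π w1) a0 b0
  have k1 : (⟨fun t => up f π (r t), (up f π).continuous.comp r.continuous⟩ : C(unitInterval, Z)) =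
      h.liftPath (p.map f.continuous).toContinuousMap (up f π w1) a0 := by
    refine (h.eq_liftPath_iff' a0).2 ⟨?_, ?_⟩
    · funext t
      show π (up f π (r t)) = f (p t)
      rw [up_pr, hr]
    · show up f π (r 0) = _
      rw [r.source]
  have k2 : q.toContinuousMap =
      h.liftPath ((q.map π.continuous).cast e1 e2).toContinuousMap (up f π w1) b0 := by
    refine (h.eq_liftPath_iff' b0).2 ⟨?_, ?_⟩
    · funext t
      rfl
    · show q 0 = _
      rw [q.source]
  rw [← k1, ← k2] at key
  have key' : up f π (r 1) = q 1 := key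
  rw [r.target, q.target] at key'
  refine Subtype.ext (Prod.ext ?_ key')
  show pr f π w2 = pr f π w'
  rw [h2, h1]

theorem sc {f : C(Y, X)} {π : C(Z, X)} (h : IsCoveringMap π) (hs : Function.Surjective π)
    [PathConnectedSpace Y] [SimplyConnectedSpace Z] (hpi : PiIso f) :
    SimplyConnectedSpace (W f π) := by
  rw [simply_connected_iff_loops_nullhomotopic]
  refine ⟨⟨?_, joined h hpi⟩, ?_⟩
  · obtain ⟨y⟩ := (inferInstance : Nonempty Y)
    obtain ⟨z, hz⟩ := hs (f y)
    exact ⟨⟨(y, z), hz.symm⟩⟩
  · intro w γ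
    have hc := cov_pr f π h
    have hr : (γ.map (up f π).continuous).Homotopic (Path.refl (up f π w)) :=
      SimplyConnectedSpace.paths_homotopic _ _
    have hr2 := hr.map π
    have e1 : ((γ.map (pr f π).continuous).map f.continuous).toContinuousMap =
        ((γ.map (up f π).continuous).map π.continuous).toContinuousMap := by
      ext t
      show f (pr f π (γ t)) = π (up f π (γ t))
      exact (up_pr f π _).symm
    have e2 : (Path.refl (f (pr f π w))).toContinuousMap =
        ((Path.refl (up f π w)).map π.continuous).toContinuousMap := by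
      ext t
      show f (pr f π w) = π (up f π w)
      exact (up_pr f π _).symm
    have h3 : ((γ.map (pr f π).continuous).map f.continuous).Homotopic
        (Path.refl (f (pr f π w))) := by
      show ContinuousMap.HomotopicRel _ _ _
      rw [e1, e2]
      exact hr2
    have h4 := (hpi (pr f π w)).1 _ h3
    refine (hc.homotopicRel_iff_comp (f₀ := γ.toContinuousMap)
      (f₁ := (Path.refl w).toContinuousMap) (S := {0, 1}) ⟨0, Or.inl rfl, ?_⟩).2 ?_
    · show γ 0 = w
      exact γ.source
    · exact h4

end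

theorem main : SpecFP := by
  intro Y X Z Γ _ _ _ _ _ _ _ _ _ _ _ f π hcont hfree hcov hsurj horb hpi
  have hinv : ∀ (γ : Γ) (z : Z), π (γ • z) = π z := fun γ z =>
    ((horb z (γ • z)).2 ⟨γ, rfl⟩).symm
  let act : MulAction Γ (W f π) :=
    { smul := fun γ w => ⟨(w.1.1, γ • w.1.2), by
        show f w.1.1 = π (γ • w.1.2)
        rw [hinv]; exact w.2⟩
      one_smul := fun w => Subtype.ext (Prod.ext rfl (one_smul Γ w.1.2))
      mul_smul := fun a b w => Subtype.ext (Prod.ext rfl (mul_smul a b w.1.2)) }
  refine ⟨W f π, inferInstance, act, pr f π, up f π, sc hcov hsurj hpi, inferInstance, ?_, ?_,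
    cov_pr f π hcov, ?_, ?_, fun _ _ => rfl, up_pr f π, ?_⟩
  · intro γ
    exact Continuous.subtype_mk (Continuous.prodMk (continuous_fst.comp continuous_subtype_val)
      ((hcont γ).comp (continuous_snd.comp continuous_subtype_val))) _
  · intro γ w hw
    exact hfree γ w.1.2 (congrArg (fun v : W f π => v.1.2) hw)
  · intro y
    obtain ⟨z, hz⟩ := hsurj (f y)
    exact ⟨⟨(y, z), hz.symm⟩, rfl⟩
  · intro w w'
    constructor
    · intro hw
      have hw' : w.1.1 = w'.1.1 := hw
      have h1 : π w.1.2 = π w'.1.2 := by rw [← w.2, ← w'.2, hw']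
      obtain ⟨γ, hγ⟩ := (horb _ _).1 h1
      exact ⟨γ, Subtype.ext (Prod.ext hw' hγ)⟩
    · rintro ⟨γ, rfl⟩
      rfl
  · intro K hK
    have hcl : IsClosed {p : Y × Z | f p.1 = π p.2} :=
      isClosed_eq (f.continuous.comp continuous_fst) (π.continuous.comp continuous_snd)
    have h1 : IsCompact ((Set.univ : Set Y) ×ˢ K) := isCompact_univ.prod hK
    have h2 : (up f π) ⁻¹' K = Subtype.val ⁻¹' ((Set.univ : Set Y) ×ˢ K) := by
      ext w
      simp [up]
    rw [h2]
    exact hcl.isClosedEmbedding_subtypeVal.isCompact_preimage h1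

end Vale.Agent.P223.R2.H968.FP
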