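import Vale.Agent.P223.R2.H84.SpecAm
import Vale.Agent.P223.R2.H968.FP

/-! Row R3: the fibre product without simple connectivity (helper968). -/

namespace Vale.Agent.P223.R2.H968.FP

open Vale.Agent.P223.R2.H84
open scoped Topology

theorem main2 : SpecFP2 := by
  intro Y X Z Γ _ _ _ _ _ _ _ _ _ f π hcont hfree hcov hsurj horb
  have hinv : ∀ (γ : Γ) (z : Z), π (γ • z) = π z := fun γ z =>
    ((horb z (γ • z)).2 ⟨γ, rfl⟩).symm
  let act : MulAction Γ (W f π) :=
    { smul := fun γ w => ⟨(w.1.1, γ • w.1.2), by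
        show f w.1.1 = π (γ • w.1.2)
        rw [hinv]; exact w.2⟩
      one_smul := fun w => Subtype.ext (Prod.ext rfl (one_smul Γ w.1.2))
      mul_smul := fun a b w => Subtype.ext (Prod.ext rfl (mul_smul a b w.1.2)) }
  refine ⟨W f π, inferInstance, act, pr f π, up f π, inferInstance, ?_, ?_,
    cov_pr f π hcov, ?_, ?_, fun _ _ => rfl, up_pr f π, ?_, ?_⟩
  · intro γ
    exact Continuous.subtype_mk (Continuous.prodMk (continuous_fst.comp continuous_subtype_val)
      ((hcont γ).comp (continuous_snd.comp continuous_subtype_val))) _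
  · intro γ w hw
    exact hfree γ w.1.2 (congrArg (fun v : W f π => v.1.2) hw)
  · intro y
    obtain ⟨z, hz⟩ := hsurj (f y)
    exact ⟨⟨(y, z), hz.symm⟩, rfl⟩
  · intro w w'
    constructor
    · intro hw
      have hw' : w.1.1 = w'.1.1 := hw
      have h1 : π w.1.2 = π w'.1.2 := by rw [← w.2, ← w'.2, hw']
      obtain ⟨γ, hγ⟩ := (horb _ _).1 h1
      exact ⟨γ, Subtype.ext (Prod.ext hw' hγ)⟩
    · rintro ⟨γ, rfl⟩
      rfl
  · intro K hK
    have hcl : IsClosed {p : Y × Z | f p.1 = π p.2} :=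
      isClosed_eq (f.continuous.comp continuous_fst) (π.continuous.comp continuous_snd)
    have h1 : IsCompact ((Set.univ : Set Y) ×ˢ K) := isCompact_univ.prod hK
    have h2 : (up f π) ⁻¹' K = Subtype.val ⁻¹' ((Set.univ : Set Y) ×ˢ K) := by
      ext w
      simp [up]
    rw [h2]
    exact hcl.isClosedEmbedding_subtypeVal.isCompact_preimage h1
  · intro V _ a b hab
    exact ⟨⟨fun v => ⟨(a v, b v), (hab v).symm⟩,
      Continuous.subtype_mk (a.continuous.prodMk b.continuous) _⟩, fun _ => rfl, fun _ => rfl⟩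

end Vale.Agent.P223.R2.H968.FP
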