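import Vale.Agent.P223.R2.H84.SpecAm
import Mathlib.Topology.Homotopy.Lifting
import Mathlib.Topology.Covering.Quotient
import Mathlib.AlgebraicTopology.FundamentalGroupoid.SimplyConnected

/-! Row R4: the lift of `f` to the universal coverings (helper968). -/

namespace Vale.Agent.P223.R2.H968.Lift

open Vale.Agent.P223.R2.H84 Vale.Agent.P223.X MulOpposite
open scoped Topology

theorem quot {E B H : Type} [TopologicalSpace E] [TopologicalSpace B] [Group H] [MulAction H E]
    (p : C(E, B)) (hcont : ∀ g : H, Continuous fun v : E => g • v)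
    (hfree : ∀ (g : H) (v : E), g • v = v → g = 1) (hcov : IsCoveringMap p)
    (hs : Function.Surjective p) (horb : ∀ x y : E, p x = p y ↔ ∃ g : H, g • x = y) :
    IsQuotientCoveringMap p H where
  toIsQuotientMap := hcov.isQuotientMap hs
  toContinuousConstSMul := ⟨hcont⟩
  apply_eq_iff_mem_orbit := by
    intro e₁ e₂
    rw [MulAction.mem_orbit_iff, eq_comm]
    exact horb e₂ e₁
  disjoint := by
    intro e
    obtain ⟨U, hU, he, hinj⟩ := hcov.isLocalHomeomorph.isLocallyInjective e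
    refine ⟨U, hU.mem_nhds he, ?_⟩
    rintro g ⟨_, ⟨u, hu, rfl⟩, hgu⟩
    refine hfree g u (hinj hgu hu ?_)
    exact ((horb u (g • u)).2 ⟨g, rfl⟩).symm

theorem gmean_equiv {A B : Type} [Group A] [Group B] (e : A ≃* B) (h : Nonempty (GMean A)) :
    Nonempty (GMean B) := by
  obtain ⟨m⟩ := h
  have hb : ∀ f : B → ℝ, MT.Bdd f → MT.Bdd fun a => f (e a) := by
    rintro f ⟨C, hC⟩
    exact ⟨C, fun a => hC _⟩
  refine ⟨{ μ := fun f => m.μ fun a => f (e a)
            add := fun f g hf hg => m.add _ _ (hb f hf) (hb g hg)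
            smul := fun r f hf => m.smul r _ (hb f hf)
            const := fun r => m.const r
            bound := fun f C hC => m.bound _ C fun a => hC _
            inv := fun f b hf => ?_ }⟩
  have h1 := m.inv (fun a => f (e a)) (e.symm b) (hb f hf)
  have h2 : (fun a => f (e (e.symm b * a))) = fun a => f (b * e a) := by
    funext a
    rw [map_mul, e.apply_symm_apply]
  rw [h2] at h1
  exact h1

theorem mono {Y X V Z : Type} [TopologicalSpace Y] [TopologicalSpace X] [TopologicalSpace V]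
    [TopologicalSpace Z] {f : C(Y, X)} {a : C(V, Y)} {π : C(Z, X)} (ha : IsCoveringMap a)
    (hπ : IsCoveringMap π) {b : C(V, Z)} (hb : ∀ v, π (b v) = f (a v)) {y0 : Y} {v0 : V}
    (hv0 : a v0 = y0) {z0 : Z} (hz0 : π z0 = f y0) (hb0 : b v0 = z0)
    (c : Path.Homotopic.Quotient y0 y0) :
    b (ha.monodromy c ⟨v0, hv0⟩) = (hπ.monodromy (c.map f) ⟨z0, hz0⟩ : Z) := by
  obtain ⟨γ⟩ := c
  have h0 : γ 0 = a v0 := by rw [hv0]; exact γ.source
  have h0' : (γ.map f.continuous).toContinuousMap 0 = π z0 := by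
    show f (γ 0) = π z0
    rw [γ.source, hz0]
  have h1 : (⟨fun t => b (ha.liftPath γ.toContinuousMap v0 h0 t), b.continuous.comp
      (ha.liftPath γ.toContinuousMap v0 h0).continuous⟩ : C(unitInterval, Z)) =
      hπ.liftPath (γ.map f.continuous).toContinuousMap z0 h0' := by
    refine (hπ.eq_liftPath_iff' h0').2 ⟨?_, ?_⟩
    · funext t
      show π (b (ha.liftPath γ.toContinuousMap v0 h0 t)) = f (γ t)
      rw [hb]
      exact congrArg f (congrFun (ha.liftPath_lifts γ.toContinuousMap v0 h0) t)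
    · show b (ha.liftPath γ.toContinuousMap v0 h0 0) = z0
      rw [ha.liftPath_zero, hb0]
  exact congrArg (fun u : C(unitInterval, Z) => u 1) h1

theorem main : SpecLift := by
  intro Y X V Z G Γ _ _ _ _ _ _ _ _ _ _ _ _ _ f a π hGc hGf ha has hao hΓc hΓf hπ hπs hπo y0
    hsurj hmean
  obtain ⟨v0, hv0⟩ := has y0
  obtain ⟨z0, hz0⟩ := hπs (f y0)
  have qa : IsQuotientCoveringMap a G := quot a hGc hGf ha has hao
  have qz : IsQuotientCoveringMap π Γ := quot π hΓc hΓf hπ hπs hπo
  -- the lift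
  obtain ⟨b, ⟨hb0, hb⟩, -⟩ := hπ.existsUnique_continuousMap_lifts (f.comp a) v0 z0
    (by rw [hz0, ← hv0]; rfl)
  have hb' : ∀ v, π (b v) = f (a v) := fun v => congrFun hb v
  let ev : a ⁻¹' {y0} := ⟨v0, hv0⟩
  let ez : π ⁻¹' {f y0} := ⟨z0, hz0⟩
  let EA : FundamentalGroup Y y0 ≃* Gᵐᵒᵖ := qa.fundamentalGroupEquiv ev
  let EZ : FundamentalGroup X (f y0) ≃* Γᵐᵒᵖ := qz.fundamentalGroupEquiv ez
  let F : Gᵐᵒᵖ →* Γᵐᵒᵖ :=
    EZ.toMonoidHom.comp ((FundamentalGroup.map f y0).comp EA.symm.toMonoidHom)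
  let ρ : G →* Γ := MonoidHom.unop F
  have hρ : ∀ g : G, ρ g = (EZ (FundamentalGroup.map f y0 (EA.symm (op g)))).unop := fun g => rfl
  -- the value at the base point
  have hbase : ∀ g : G, b (g • v0) = ρ g • z0 := by
    intro g
    set c : FundamentalGroup Y y0 := EA.symm (op g) with hc
    have h1 : EA c = op g := EA.apply_symm_apply _
    have h2 : g • v0 = (ha.monodromy c ev : V) := by
      have := (qa.fundamentalGroupToMulOpposite_apply_eq_Iff (e := ev) (γ := c) (g := op g)).1 h1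
      exact this
    have h3 : (ρ g) • z0 = (hπ.monodromy (FundamentalGroup.map f y0 c) ez : Z) := by
      have := (qz.fundamentalGroupToMulOpposite_apply_eq_Iff (e := ez)
        (γ := FundamentalGroup.map f y0 c) (g := op (ρ g))).1 rfl
      exact this
    rw [h2, h3]
    exact mono ha hπ hb' hv0 hz0 hb0 c
  have heq : ∀ (g : G) v, b (g • v) = ρ g • b v := by
    intro g
    have h1 : (fun v => b (g • v)) = fun v => ρ g • b v := by
      refine hπ.eq_of_comp_eq (b.continuous.comp (hGc g)) ((hΓc (ρ g)).comp b.continuous) ?_ v0 ?_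
      · funext v
        show π (b (g • v)) = π (ρ g • b v)
        rw [hb', ← (hπo (b v) (ρ g • b v)).2 ⟨ρ g, rfl⟩, hb', (hao v (g • v)).2 ⟨g, rfl⟩]
      · show b (g • v0) = ρ g • b v0
        rw [hbase, hb0]
    exact fun v => congrFun h1 v
  refine ⟨b, ρ, hb', heq, ?_, ?_⟩
  · intro γ
    obtain ⟨c, hc⟩ := hsurj (EZ.symm (op γ))
    refine ⟨(EA c).unop, ?_⟩
    rw [hρ, op_unop, EA.symm_apply_apply, hc, EZ.apply_symm_apply, unop_op]
  · let e0 : G ≃* FundamentalGroup Y y0 := (MulEquiv.inv' G).trans EA.symm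
    have hk : (FundamentalGroup.map f y0).ker = ρ.ker.map e0.toMonoidHom := by
      ext c
      rw [Subgroup.mem_map_equiv, MonoidHom.mem_ker, MonoidHom.mem_ker]
      have h1 : e0.symm c = (EA c).unop⁻¹ := rfl
      rw [h1, map_inv, inv_eq_one, hρ, op_unop, EA.symm_apply_apply, unop_eq_one_iff,
        map_eq_one_iff EZ EZ.injective]
    exact gmean_equiv ((MulEquiv.subgroupCongr hk).trans (e0.subgroupMap ρ.ker).symm) hmean

end Vale.Agent.P223.R2.H968.Lift
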