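import Vale.Agent.P223.R2.H84.SpecDeg
import Vale.Agent.P223.X.StokesX
import Vale.Agent.P223.X.PartX
import Vale.Agent.P223.X.CovU

/-! P223, modifications, row D1 : Stokes on a closed manifold (the covering `Y → Y`). -/

namespace Vale.Agent.P223.R2.H968.StokesY

open scoped ContDiff Topology
open MeasureTheory Vale.Agent.P223.H Vale.Agent.P223.X Vale.Agent.P223.R2.H84

theorem main : SpecStokesY := by
  intro n Y I' _ _ _ _ c' B' hc hn
  let act : MulAction X.T1 Y :=
    { smul := fun _ x => x, one_smul := fun _ => rfl, mul_smul := fun _ _ _ => rfl }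
  have hsub : Subsingleton X.T1 := inferInstanceAs (Subsingleton PUnit)
  let huni : Unique X.T1 := ⟨⟨1⟩, fun _ => Subsingleton.elim _ _⟩
  have hcov : IsCoveringMap (ContinuousMap.id Y) := by
    intro x
    have h : IsEvenlyCovered (ContinuousMap.id Y) x Unit :=
      ⟨inferInstance, Set.univ, trivial, isOpen_univ, isOpen_univ,
        (Homeomorph.prodPUnit (Set.univ : Set Y)).symm, fun x => rfl⟩
    exact h.to_isEvenlyCovered_preimage
  obtain ⟨C, hCπ, hCψ⟩ := CovU.main n Y Y X.T1 I' c' B' (ContinuousMap.id Y) hc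
    (fun _ => continuous_id) (fun _ _ _ => Subsingleton.elim _ _) hcov Function.surjective_id
    (fun x y => ⟨fun h => ⟨1, h⟩, fun ⟨_, h⟩ => h⟩)
  have hψ : ∀ i, C.ψ i = B'.β i := by
    intro i
    funext y
    have := hCψ i y
    rw [hCπ] at this
    exact this
  obtain ⟨χ, hχ⟩ := PartX.main n Y Y X.T1 I' C
  refine ⟨χ, hχ.smooth, hχ.nonneg, fun i => ?_, fun p => ?_, fun u hu => ?_⟩
  · refine HasCompactSupport.intro (isCompact_closedBall (0 : E n) 2) fun y hy => ?_
    refine hχ.supp i y ?_
    rw [mem_closedBall_zero_iff, not_le] at hy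
    exact hy.le
  · have h1 := hχ.sum p
    rw [← h1]
    refine Finset.sum_congr rfl fun i _ => ?_
    rw [finsum_unique]
    show Function.extend (B'.β i) (χ i) 0 p = C.ex i (χ i) p
    unfold Cov.ex Cov.co
    rw [← hψ i]
    by_cases hp : p ∈ Set.range (C.ψ i)
    · rw [if_pos hp]
      obtain ⟨y, rfl⟩ := hp
      rw [(C.emb i).injective.extend_apply,
        Function.leftInverse_invFun (C.emb i).injective y]
    · rw [if_neg hp, Function.extend_apply' _ _ _ hp]
      rfl
  · have hCk : ∀ k, C.Ck 1 (u k) := by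
      intro k γ i
      show ContDiff ℝ 1 fun y => u k (C.ψ i y)
      rw [hψ i]
      exact hu k i
    have h2 := StokesX.stokes (C := C) hχ u hCk ⟨0, hn⟩ (HasCompactSupport.of_compactSpace _)
    rw [← h2]
    unfold DensX.Intg
    refine Finset.sum_congr rfl fun i _ => ?_
    rw [finsum_unique]
    show _ = ∫ y, χ i y * jdet (fun k y' => u k (C.ψ i y')) y
    rw [hψ i]

end Vale.Agent.P223.R2.H968.StokesY
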